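import Crest.Agent.S0047Aux.Game

/-!
# S0047 (Snaky): zone-tree certificates and their checker (definitions)

Cells are bit indices `x + 32 * y`.  A certificate is a forest in first-child / next-sibling form.
A tree `nd a kids _` means: Maker plays `a`; `kids` is the list of alternative continuations; after
Breaker's reply `b` Maker continues with a kid whose zone (= set of all Maker moves in it) avoids `b`.
-/

set_option autoImplicit false

namespace Crest.Agent.S0047Aux

/-- certificates -/
inductive Forest
  | nil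
  | nd (a : ℕ) (kids next : Forest)

/-- does the bitmask contain all translates `i + o`, `o ∈ offs`, for some `i`? -/
def hit (M : ℕ) (o1 o2 o3 o4 o5 : ℕ) : Bool :=
  (M &&& (M >>> o1) &&& (M >>> o2) &&& (M >>> o3) &&& (M >>> o4) &&& (M >>> o5)) != 0

/-- the bitmask contains a copy of Snaky (8 orientations; offsets `dx + 32 * dy` relative to the smallest index). -/
def snakyIn (M : ℕ) : Bool :=
  -- (0,0),(1,0),(2,0),(3,0),(3,1),(4,1)
  hit M 1 2 3 35 36 ||
  -- (1,0),(2,0),(3,0),(4,0),(0,1),(1,1)   [base (1,0)]
  hit M 1 2 3 31 32 ||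
  -- (3,0),(4,0),(0,1),(1,1),(2,1),(3,1)   [base (3,0)]
  hit M 1 29 30 31 32 ||
  -- (0,0),(1,0),(1,1),(2,1),(3,1),(4,1)
  hit M 1 33 34 35 36 ||
  -- (0,0),(0,1),(0,2),(0,3),(1,3),(1,4)
  hit M 32 64 96 97 129 ||
  -- (1,0),(1,1),(1,2),(1,3),(0,3),(0,4)   [base (1,0)]
  hit M 32 64 96 95 127 ||
  -- (0,0),(0,1),(1,1),(1,2),(1,3),(1,4)
  hit M 32 33 65 97 129 ||
  -- (1,0),(1,1),(0,1),(0,2),(0,3),(0,4)   [base (1,0)]
  hit M 32 31 63 95 127

/-- guard: column between 4 and 27, so that no pattern wraps around a row. -/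
def guard (a : ℕ) : Bool := 4 ≤ a % 32 && a % 32 < 28

/-- One pass: `(ok, union of the zones, intersection of the zones)` of the trees of a forest, all trees being checked
against `n` (stones still allowed) and `M` (Maker's stones). -/
def chk : Forest → ℕ → ℕ → Bool × ℕ × ℕ
  | .nil, _, _ => (true, 0, 0)
  | .nd a kids next, n, M =>
    match chk kids (n - 1) (M ||| (1 <<< a)), chk next n M with
    | (ok1, u1, i1), (ok2, u2, i2) =>
      (n != 0 && !(M.testBit a) && guard a &&
        (match kids with
          | .nil => snakyIn (M ||| (1 <<< a))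
          | _ => ok1 && i1 == 0) && ok2,
       (1 <<< a) ||| u1 ||| u2,
       match next with
        | .nil => (1 <<< a) ||| u1
        | _ => ((1 <<< a) ||| u1) &&& i2)

end Crest.Agent.S0047Aux
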