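import Crest.Agent.S0047Aux.ZoneChecker

/-!
# Faster (recursor based) versions of the checker functions, for kernel evaluation
-/

set_option autoImplicit false

namespace Crest.Agent.S0047Aux.ZC

noncomputable def uniR : F → Nat :=
  @F.rec (fun _ => Nat) 0
    (fun m _ _ ihn => Nat.lor (Nat.shiftLeft 1 m) ihn)
    (fun m _ _ ihk ihn => Nat.lor (Nat.lor (Nat.shiftLeft 1 m) ihk) ihn)

theorem uniR_eq (f : F) : uniR f = uni f := by
  induction f with
  | nil => rfl
  | lf m h n ih => show Nat.lor _ (uniR n) = _; rw [ih]; rfl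
  | nd m k n ihk ih => show Nat.lor (Nat.lor _ (uniR k)) (uniR n) = _; rw [ihk, ih]; rfl

noncomputable def intAccR : F → Nat → Nat :=
  @F.rec (fun _ => Nat → Nat) (fun acc => acc)
    (fun m _ _ ihn acc => ihn (Nat.land acc (Nat.shiftLeft 1 m)))
    (fun m k _ _ ihn acc => ihn (Nat.land acc (Nat.lor (Nat.shiftLeft 1 m) (uniR k))))

theorem intAccR_eq (f : F) (acc : Nat) : intAccR f acc = intAcc f acc := by
  induction f generalizing acc with
  | nil => rfl
  | lf m h n ih => show intAccR n _ = _; rw [ih]; rfl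
  | nd m k n _ ih => show intAccR n (Nat.land acc (Nat.lor _ (uniR k))) = _; rw [ih, uniR_eq]; rfl

noncomputable def int0R : F → Nat :=
  @F.rec (fun _ => Nat) 1
    (fun m _ n _ => intAccR n (Nat.shiftLeft 1 m))
    (fun m k n _ _ => intAccR n (Nat.lor (Nat.shiftLeft 1 m) (uniR k)))

theorem int0R_eq (f : F) : int0R f = int0 f := by
  cases f with
  | nil => rfl
  | lf m h n => show intAccR n _ = _; rw [intAccR_eq]; rfl
  | nd m k n => show intAccR n (Nat.lor _ (uniR k)) = _; rw [intAccR_eq, uniR_eq]; rfl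

noncomputable def okR : F → Nat → Nat → Bool :=
  @F.rec (fun _ => Nat → Nat → Bool) (fun _ _ => true)
    (fun m h _ ihn M d =>
      Nat.beq (Nat.land M (Nat.shiftLeft 1 m)) 0 && Nat.ble 1 d &&
        win (Nat.lor M (Nat.shiftLeft 1 m)) h && ihn M d)
    (fun m k _ ihk ihn M d =>
      Nat.beq (Nat.land M (Nat.shiftLeft 1 m)) 0 && Nat.ble 1 d && Nat.beq (int0R k) 0 &&
        ihk (Nat.lor M (Nat.shiftLeft 1 m)) (Nat.sub d 1) && ihn M d)

theorem okR_eq (f : F) (M d : Nat) : okR f M d = okF f M d := by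
  induction f generalizing M d with
  | nil => rfl
  | lf m h n ih =>
    show (_ && _ && _ && okR n M d) = _
    rw [ih]; rfl
  | nd m k n ihk ih =>
    show (_ && _ && Nat.beq (int0R k) 0 && okR k _ _ && okR n M d) = _
    rw [ih, ihk, int0R_eq]; rfl

end Crest.Agent.S0047Aux.ZC
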