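import Mathlib
import Crest.Prelude.Def_PolyominoGame

/-!
# S0047 (Snaky): from a game-theoretic win predicate to the frozen statement

`W n M B` : Maker, to move in the position (Maker stones `M`, Breaker stones `B`), owns a copy of Snaky
already or can get one with at most `n` more stones.  `W 21 ∅ ∅` implies the statement.
-/

set_option autoImplicit false

namespace Crest.Agent.S0047Aux

open Crest.CombinatoricsR.PolyominoGame

/-- cells of the board -/
abbrev Cell := ℤ × ℤ

lemma containsCopy_mono {X Y : Set Cell} (h : X ⊆ Y) (hX : ContainsCopy X) : ContainsCopy Y := by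
  obtain ⟨t, e1, e2, h1, h2, h3⟩ := hX
  refine ⟨t, e1, e2, h1, h2, ?_⟩
  rcases h3 with h3 | h3
  · exact Or.inl fun p hp => h (h3 p hp)
  · exact Or.inr fun p hp => h (h3 p hp)

/-- Maker (to move) wins with at most `n` more stones. -/
def W : ℕ → Finset Cell → Finset Cell → Prop
  | 0, M, _ => ContainsCopy (M : Set Cell)
  | n + 1, M, B => ContainsCopy (M : Set Cell) ∨
      ∃ a, a ∉ M ∧ a ∉ B ∧ ∀ b, b ∉ insert a M → b ∉ B → W n (insert a M) (insert b B)

lemma W_of_copy {M : Finset Cell} (h : ContainsCopy (M : Set Cell)) (n : ℕ) (B : Finset Cell) :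
    W n M B := by
  cases n with
  | zero => exact h
  | succ n => exact Or.inl h

open Classical in
/-- Maker's move in a position. -/
noncomputable def pick (n : ℕ) (M B : Finset Cell) : Cell :=
  if h : ∃ a, a ∉ M ∧ a ∉ B ∧ ∀ b, b ∉ insert a M → b ∉ B → W (n - 1) (insert a M) (insert b B)
  then h.choose else (Infinite.exists_notMem_finset (M ∪ B)).choose

lemma pick_legal (n : ℕ) (M B : Finset Cell) : pick n M B ∉ M ∧ pick n M B ∉ B := by
  unfold pick
  split_ifs with h
  · exact ⟨h.choose_spec.1, h.choose_spec.2.1⟩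
  · have := (Infinite.exists_notMem_finset (M ∪ B)).choose_spec
    rw [Finset.mem_union, not_or] at this
    exact this

lemma pick_spec {n : ℕ} {M B : Finset Cell} (h : W (n + 1) M B) {b : Cell}
    (hb : b ∉ insert (pick (n + 1) M B) M) (hbB : b ∉ B) :
    W n (insert (pick (n + 1) M B) M) (insert b B) := by
  rcases h with h | h
  · exact W_of_copy (containsCopy_mono (by simp) h) _ _
  · have h' : ∃ a, a ∉ M ∧ a ∉ B ∧
        ∀ b, b ∉ insert a M → b ∉ B → W (n + 1 - 1) (insert a M) (insert b B) := h
    have e : pick (n + 1) M B = h'.choose := by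
      unfold pick
      rw [dif_pos h']
    rw [e] at hb ⊢
    exact h'.choose_spec.2.2 b hb hbB

/-- state of the play seen by Maker -/
structure St where
  n : ℕ
  M : Finset Cell
  B : Finset Cell

/-- one round: Maker plays `pick`, Breaker answers `b`. -/
noncomputable def step (s : St) (b : Cell) : St :=
  ⟨s.n - 1, insert (pick s.n s.M s.B) s.M, insert b s.B⟩

/-- the policy -/
noncomputable def policy (bs : List Cell) : Cell :=
  let s := bs.foldl step ⟨21, ∅, ∅⟩
  pick s.n s.M s.B

/-- the state after `k` rounds -/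
noncomputable def st (b : ℕ → Cell) (k : ℕ) : St := ((List.range k).map b).foldl step ⟨21, ∅, ∅⟩

lemma st_succ (b : ℕ → Cell) (k : ℕ) : st b (k + 1) = step (st b k) (b k) := by
  simp [st, List.range_succ]

lemma claim_eq (b : ℕ → Cell) (k : ℕ) :
    makerClaim policy b k = pick (st b k).n (st b k).M (st b k).B := rfl

lemma st_n (b : ℕ → Cell) (k : ℕ) : (st b k).n = 21 - k := by
  induction k with
  | zero => rfl
  | succ k ih => rw [st_succ]; simp only [step, ih]; omega

lemma mem_st_M (b : ℕ → Cell) (k : ℕ) (c : Cell) :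
    c ∈ (st b k).M ↔ ∃ j, j < k ∧ c = makerClaim policy b j := by
  induction k with
  | zero => simp [st]
  | succ k ih =>
    rw [st_succ]
    simp only [step, Finset.mem_insert, ih, ← claim_eq]
    constructor
    · rintro (h | ⟨j, hj, h⟩)
      · exact ⟨k, by omega, h⟩
      · exact ⟨j, by omega, h⟩
    · rintro ⟨j, hj, h⟩
      rcases Nat.lt_succ_iff_lt_or_eq.1 hj with h1 | h1
      · exact Or.inr ⟨j, h1, h⟩
      · subst h1; exact Or.inl h

lemma mem_st_B (b : ℕ → Cell) (k : ℕ) (c : Cell) :
    c ∈ (st b k).B ↔ ∃ j, j < k ∧ c = b j := by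
  induction k with
  | zero => simp [st]
  | succ k ih =>
    rw [st_succ]
    simp only [step, Finset.mem_insert, ih]
    constructor
    · rintro (h | ⟨j, hj, h⟩)
      · exact ⟨k, by omega, h⟩
      · exact ⟨j, by omega, h⟩
    · rintro ⟨j, hj, h⟩
      rcases Nat.lt_succ_iff_lt_or_eq.1 hj with h1 | h1
      · exact Or.inr ⟨j, h1, h⟩
      · subst h1; exact Or.inl h

/-- **From the win predicate to the statement.** -/
theorem statement_of_W (h : W 21 ∅ ∅) :
    ∃ σ : List (ℤ × ℤ) → ℤ × ℤ, ∀ b : ℕ → ℤ × ℤ,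
      (∀ k : ℕ, k < 20 →
        (∀ j : ℕ, j ≤ k → b k ≠ makerClaim σ b j) ∧
        (∀ j : ℕ, j < k → b k ≠ b j)) →
      (∀ k : ℕ, k ≤ 20 →
        (∀ j : ℕ, j < k → makerClaim σ b k ≠ makerClaim σ b j) ∧
        (∀ j : ℕ, j < k → makerClaim σ b k ≠ b j)) ∧
      ContainsCopy {c | ∃ j : ℕ, j ≤ 20 ∧ c = makerClaim σ b j} := by
  refine ⟨policy, fun b hb => ⟨fun k _ => ⟨fun j hj he => ?_, fun j hj he => ?_⟩, ?_⟩⟩
  · have := (pick_legal (st b k).n (st b k).M (st b k).B).1
    rw [← claim_eq] at this
    exact this ((mem_st_M b k _).2 ⟨j, hj, he⟩)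
  · have := (pick_legal (st b k).n (st b k).M (st b k).B).2
    rw [← claim_eq] at this
    exact this ((mem_st_B b k _).2 ⟨j, hj, he⟩)
  · have key : ∀ k, k ≤ 20 → W (21 - k) (st b k).M (st b k).B := by
      intro k
      induction k with
      | zero => intro _; exact h
      | succ k ih =>
        intro hk
        have h1 := ih (by omega)
        have e : 21 - k = (21 - (k + 1)) + 1 := by omega
        rw [e] at h1
        rw [st_succ]
        simp only [step, st_n, e]
        apply pick_spec h1
        · rw [← e, ← st_n b k, ← claim_eq, Finset.mem_insert, not_or]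
          refine ⟨(hb k (by omega)).1 k le_rfl, fun hm => ?_⟩
          obtain ⟨j, hj, he⟩ := (mem_st_M b k _).1 hm
          exact (hb k (by omega)).1 j hj.le he
        · intro hm
          obtain ⟨j, hj, he⟩ := (mem_st_B b k _).1 hm
          exact (hb k (by omega)).2 j hj he
    have h20 : W (0 + 1) (st b 20).M (st b 20).B := key 20 le_rfl
    obtain ⟨c, hc⟩ := Infinite.exists_notMem_finset
      (insert (pick (0 + 1) (st b 20).M (st b 20).B) (st b 20).M ∪ (st b 20).B)
    rw [Finset.mem_union, not_or] at hc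
    have hfin : ContainsCopy _ := pick_spec h20 hc.1 hc.2
    refine containsCopy_mono ?_ hfin
    intro x hx
    rw [Finset.mem_coe, Finset.mem_insert] at hx
    rcases hx with hx | hx
    · refine ⟨20, le_rfl, ?_⟩
      rw [hx, claim_eq, st_n]
    · obtain ⟨j, hj, he⟩ := (mem_st_M b 20 _).1 hx
      exact ⟨j, hj.le, he⟩

end Crest.Agent.S0047Aux
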