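import Crest.Agent.S0047Aux.Parse
import Crest.Agent.S0047Aux.Fast

/-!
# Gluing separately checked pieces of a certificate
-/

set_option autoImplicit false

namespace Crest.Agent.S0047Aux.ZC

/-- concatenation of sibling lists -/
def app : F → F → F
  | .nil, g => g
  | .lf m h n, g => .lf m h (app n g)
  | .nd m k n, g => .nd m k (app n g)

theorem okF_app (f g : F) (M d : Nat) : okF (app f g) M d = (okF f M d && okF g M d) := by
  induction f with
  | nil => simp [app, okF]
  | lf m h n ih => simp only [app, okF, ih, Bool.and_assoc]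
  | nd m k n _ ih => simp only [app, okF, ih, Bool.and_assoc]

theorem lor_assoc' (a b c : Nat) : Nat.lor (Nat.lor a b) c = Nat.lor a (Nat.lor b c) :=
  Nat.or_assoc a b c

theorem land_assoc' (a b c : Nat) : Nat.land (Nat.land a b) c = Nat.land a (Nat.land b c) :=
  Nat.and_assoc a b c

theorem uni_app (f g : F) : uni (app f g) = Nat.lor (uni f) (uni g) := by
  induction f with
  | nil => show uni g = 0 ||| uni g; simp
  | lf m h n ih => simp only [app, uni, ih, lor_assoc']
  | nd m k n _ ih => simp only [app, uni, ih, lor_assoc']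

theorem intAcc_app (f g : F) (acc : Nat) : intAcc (app f g) acc = intAcc g (intAcc f acc) := by
  induction f generalizing acc with
  | nil => rfl
  | lf m h n ih => simp only [app, intAcc, ih]
  | nd m k n _ ih => simp only [app, intAcc, ih]

theorem intAcc_land (f : F) (a b : Nat) : intAcc f (Nat.land a b) = Nat.land a (intAcc f b) := by
  induction f generalizing b with
  | nil => rfl
  | lf m h n ih => simp only [intAcc, land_assoc', ih]
  | nd m k n _ ih => simp only [intAcc, land_assoc', ih]

theorem intAcc_eq {f : F} (hf : f ≠ .nil) (acc : Nat) : intAcc f acc = Nat.land acc (int0 f) := by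
  cases f with
  | nil => exact absurd rfl hf
  | lf m h n => simp only [intAcc, int0, intAcc_land]
  | nd m k n => simp only [intAcc, int0, intAcc_land]

theorem int0_app {f g : F} (hf : f ≠ .nil) (hg : g ≠ .nil) :
    int0 (app f g) = Nat.land (int0 f) (int0 g) := by
  cases f with
  | nil => exact absurd rfl hf
  | lf m h n => simp only [app, int0, intAcc_app, intAcc_eq hg]
  | nd m k n => simp only [app, int0, intAcc_app, intAcc_eq hg]

theorem app_ne_nil {f : F} (hf : f ≠ .nil) (g : F) : app f g ≠ .nil := by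
  cases f with
  | nil => exact absurd rfl hf
  | lf m h n => simp [app]
  | nd m k n => simp [app]

/-- summary of a checked nonempty forest: union `U` and intersection `I` of the zones of its trees -/
def Good (f : F) (M d U I : Nat) : Prop :=
  f ≠ .nil ∧ okF f M d = true ∧ uni f = U ∧ int0 f = I

def notNil : F → Bool
  | .nil => false
  | _ => true

/-- the test run by the kernel on a chunk -/
noncomputable def chunkTest (f : F) (M d U I : Nat) : Bool :=
  notNil f && okR f M d && Nat.beq (uniR f) U && Nat.beq (int0R f) I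

theorem good_of_chunkTest {f : F} {M d U I : Nat} (h : chunkTest f M d U I = true) :
    Good f M d U I := by
  simp only [chunkTest, Bool.and_eq_true, Nat.beq_eq, okR_eq, uniR_eq, int0R_eq] at h
  obtain ⟨⟨⟨h1, h2⟩, h3⟩, h4⟩ := h
  refine ⟨?_, h2, h3, h4⟩
  rintro rfl
  simp [notNil] at h1

theorem good_app {f g : F} {M d U1 I1 U2 I2 : Nat} (hf : Good f M d U1 I1) (hg : Good g M d U2 I2) :
    Good (app f g) M d (Nat.lor U1 U2) (Nat.land I1 I2) := by
  obtain ⟨a1, a2, a3, a4⟩ := hf
  obtain ⟨b1, b2, b3, b4⟩ := hg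
  exact ⟨app_ne_nil a1 g, by rw [okF_app, a2, b2]; rfl, by rw [uni_app, a3, b3],
    by rw [int0_app a1 b1, a4, b4]⟩

theorem good_nd {k : F} {M d m M' d' U I : Nat} (hk : Good k M' d' U I)
    (hM' : Nat.lor M (Nat.shiftLeft 1 m) = M') (hd' : Nat.sub d 1 = d')
    (hI : I = 0) (hm : Nat.beq (Nat.land M (Nat.shiftLeft 1 m)) 0 = true) (hd : Nat.ble 1 d = true) :
    Good (.nd m k .nil) M d (Nat.lor (Nat.shiftLeft 1 m) U) (Nat.lor (Nat.shiftLeft 1 m) U) := by
  obtain ⟨a1, a2, a3, a4⟩ := hk
  subst hM' hd' hI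
  refine ⟨by simp, ?_, ?_, ?_⟩
  · simp only [okF, hm, hd, a4, a2]; rfl
  · simp only [uni, a3]
    show (_ ||| 0 : Nat) = _
    simp
  · simp only [int0, intAcc, a3]

/-- re-labelling the summaries by literals -/
theorem Good.cast {f : F} {M d U I U' I' : Nat} (h : Good f M d U I) (hU : U = U') (hI : I = I') :
    Good f M d U' I' := by subst hU hI; exact h

open Crest.CombinatoricsR.PolyominoGame in
theorem statement_of_good {root : F} {U I : Nat} (h : Good root 0 21 U I) :
    ∃ σ : List (ℤ × ℤ) → ℤ × ℤ, ∀ b : ℕ → ℤ × ℤ,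
      (∀ k : ℕ, k < 20 →
        (∀ j : ℕ, j ≤ k → b k ≠ makerClaim σ b j) ∧
        (∀ j : ℕ, j < k → b k ≠ b j)) →
      (∀ k : ℕ, k ≤ 20 →
        (∀ j : ℕ, j < k → makerClaim σ b k ≠ makerClaim σ b j) ∧
        (∀ j : ℕ, j < k → makerClaim σ b k ≠ b j)) ∧
      ContainsCopy {c | ∃ j : ℕ, j ≤ 20 ∧ c = makerClaim σ b j} :=
  statement_of_okF root h.1 h.2.1

end Crest.Agent.S0047Aux.ZC
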