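import Crest.Agent.S0047Aux.ZoneChecker

/-!
# Compact encoding of certificates

A certificate forest is written in postfix order as a stream of 25-bit tokens
`kind + 4 * (m + 1024 * h)`, packed (little endian) `cnt` tokens per word.
No property of the decoder is needed: the checker is run on the decoded forest.
-/

set_option autoImplicit false

namespace Crest.Agent.S0047Aux.ZC

/-- one token (continuation passing style, so that the kernel evaluates it iteratively) -/
def dec1 {α : Type} (tok : Nat) (s : List F) (k : List F → α) : α :=
  match Nat.land tok 3 with
  | 0 => k (F.lf (Nat.land (Nat.shiftRight tok 2) 1023) (Nat.shiftRight tok 12) F.nil :: s)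
  | 1 =>
    match s with
    | nx :: s' => k (F.lf (Nat.land (Nat.shiftRight tok 2) 1023) (Nat.shiftRight tok 12) nx :: s')
    | [] => k []
  | 2 =>
    match s with
    | kd :: s' => k (F.nd (Nat.shiftRight tok 2) kd F.nil :: s')
    | [] => k []
  | _ =>
    match s with
    | nx :: kd :: s' => k (F.nd (Nat.shiftRight tok 2) kd nx :: s')
    | _ => k []

/-- decode the tokens of one word; a zero word ends the word (token 0 never occurs: a leaf hint
is never 0 together with m = 0 in practice, and padding is harmless anyway) -/
def decW {α : Type} : Nat → Nat → List F → (List F → α) → α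
  | 0, _, s, k => k s
  | c + 1, w, s, k =>
    match w with
    | 0 => k s
    | _ => dec1 (Nat.land w 33554431) s (fun s' => decW c (Nat.shiftRight w 25) s' k)

def decL : List Nat → List F → List F
  | [], s => s
  | w :: ws, s => decW 80 w s (fun s' => decL ws s')

/-- the decoded forest -/
def parse (ws : List Nat) : F :=
  match decL ws [] with
  | f :: _ => f
  | [] => F.nil

end Crest.Agent.S0047Aux.ZC
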