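import Crest.Agent.S0047Aux.Checker

/-!
# S0047 (Snaky): soundness of the zone-tree checker
-/

set_option autoImplicit false

namespace Crest.Agent.S0047Aux

open Crest.CombinatoricsR.PolyominoGame

/-- decoding of bit indices -/
def dec (k : ℕ) : Cell := (((k % 32 : ℕ) : ℤ), ((k / 32 : ℕ) : ℤ))

lemma dec_inj : Function.Injective dec := by
  intro a b h
  simp only [dec, Prod.mk.injEq, Nat.cast_inj] at h
  omega

/-- the bitmask `m` represents the finite set `F`. -/
def Rep (m : ℕ) (F : Finset Cell) : Prop := ∀ c, c ∈ F ↔ ∃ k, m.testBit k = true ∧ dec k = c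

/-- all stones are in the columns 4..27. -/
def Guarded (m : ℕ) : Prop := ∀ k, m.testBit k = true → 4 ≤ k % 32 ∧ k % 32 < 28

/-- `B` avoids the zone `z`. -/
def Disj (B : Finset Cell) (z : ℕ) : Prop := ∀ k, z.testBit k = true → dec k ∉ B

lemma testBit_or_bit (M a k : ℕ) :
    (M ||| (1 <<< a)).testBit k = (M.testBit k || decide (a = k)) := by
  rw [Nat.testBit_or, Nat.one_shiftLeft, Nat.testBit_two_pow]

lemma rep_zero : Rep 0 ∅ := by
  intro c; simp

lemma rep_insert {M : ℕ} {F : Finset Cell} (h : Rep M F) (a : ℕ) :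
    Rep (M ||| (1 <<< a)) (insert (dec a) F) := by
  intro c
  rw [Finset.mem_insert, h c]
  constructor
  · rintro (rfl | ⟨k, hk, rfl⟩)
    · exact ⟨a, by simp, rfl⟩
    · exact ⟨k, by simp [hk], rfl⟩
  · rintro ⟨k, hk, rfl⟩
    rw [testBit_or_bit, Bool.or_eq_true, decide_eq_true_eq] at hk
    rcases hk with hk | rfl
    · exact Or.inr ⟨k, hk, rfl⟩
    · exact Or.inl rfl

lemma guarded_zero : Guarded 0 := by
  intro k hk; simp at hk

lemma guarded_insert {M : ℕ} (h : Guarded M) {a : ℕ} (ha : guard a = true) :
    Guarded (M ||| (1 <<< a)) := by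
  intro k hk
  rw [testBit_or_bit, Bool.or_eq_true, decide_eq_true_eq] at hk
  rcases hk with hk | rfl
  · exact h k hk
  · simpa [guard] using ha

lemma hit_spec {M o1 o2 o3 o4 o5 : ℕ} (h : hit M o1 o2 o3 o4 o5 = true) :
    ∃ i, M.testBit i = true ∧ M.testBit (i + o1) = true ∧ M.testBit (i + o2) = true ∧
      M.testBit (i + o3) = true ∧ M.testBit (i + o4) = true ∧ M.testBit (i + o5) = true := by
  unfold hit at h
  have h' : (M &&& (M >>> o1) &&& (M >>> o2) &&& (M >>> o3) &&& (M >>> o4) &&& (M >>> o5)) ≠ 0 := by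
    simpa using h
  obtain ⟨i, hi⟩ := Nat.exists_testBit_of_ne_zero h'
  refine ⟨i, ?_⟩
  simp only [Nat.testBit_and, Nat.testBit_shiftRight, Bool.and_eq_true] at hi
  obtain ⟨⟨⟨⟨⟨h0, h1⟩, h2⟩, h3⟩, h4⟩, h5⟩ := hi
  simp only [Nat.add_comm i]
  exact ⟨h0, h1, h2, h3, h4, h5⟩

lemma mem_F {M : ℕ} {F : Finset Cell} (hRep : Rep M F) {k : ℕ} (hk : M.testBit k = true) {x y : ℤ}
    (hx : x = ((k % 32 : ℕ) : ℤ)) (hy : y = ((k / 32 : ℕ) : ℤ)) : (x, y) ∈ (F : Set Cell) :=
  Finset.mem_coe.2 ((hRep _).2 ⟨k, hk, by simp [dec, hx, hy]⟩)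

lemma snakyIn_spec {M : ℕ} {F : Finset Cell} (hRep : Rep M F) (hG : Guarded M) (h : snakyIn M = true) :
    ContainsCopy (F : Set Cell) := by
  unfold snakyIn at h
  simp only [Bool.or_eq_true] at h
  rcases h with ((((((h | h) | h) | h) | h) | h) | h) | h
  · obtain ⟨i, h0, h1, h2, h3, h4, h5⟩ := hit_spec h
    have hg := hG i h0
    refine ⟨(((i % 32 : ℕ) : ℤ) + (0), ((i / 32 : ℕ) : ℤ) + (0)), 1, 1, by norm_num, by norm_num, Or.inl fun p hp => ?_⟩
    simp only [snaky, Finset.mem_insert, Finset.mem_singleton] at hp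
    rcases hp with rfl | rfl | rfl | rfl | rfl | rfl
    · exact mem_F hRep h0 (by push_cast; omega) (by push_cast; omega)
    · exact mem_F hRep h1 (by push_cast; omega) (by push_cast; omega)
    · exact mem_F hRep h2 (by push_cast; omega) (by push_cast; omega)
    · exact mem_F hRep h3 (by push_cast; omega) (by push_cast; omega)
    · exact mem_F hRep h4 (by push_cast; omega) (by push_cast; omega)
    · exact mem_F hRep h5 (by push_cast; omega) (by push_cast; omega)
  · obtain ⟨i, h0, h1, h2, h3, h4, h5⟩ := hit_spec h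
    have hg := hG i h0
    refine ⟨(((i % 32 : ℕ) : ℤ) + (3), ((i / 32 : ℕ) : ℤ) + (0)), -1, 1, by norm_num, by norm_num, Or.inl fun p hp => ?_⟩
    simp only [snaky, Finset.mem_insert, Finset.mem_singleton] at hp
    rcases hp with rfl | rfl | rfl | rfl | rfl | rfl
    · exact mem_F hRep h3 (by push_cast; omega) (by push_cast; omega)
    · exact mem_F hRep h2 (by push_cast; omega) (by push_cast; omega)
    · exact mem_F hRep h1 (by push_cast; omega) (by push_cast; omega)
    · exact mem_F hRep h0 (by push_cast; omega) (by push_cast; omega)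
    · exact mem_F hRep h5 (by push_cast; omega) (by push_cast; omega)
    · exact mem_F hRep h4 (by push_cast; omega) (by push_cast; omega)
  · obtain ⟨i, h0, h1, h2, h3, h4, h5⟩ := hit_spec h
    have hg := hG i h0
    refine ⟨(((i % 32 : ℕ) : ℤ) + (-3), ((i / 32 : ℕ) : ℤ) + (1)), 1, -1, by norm_num, by norm_num, Or.inl fun p hp => ?_⟩
    simp only [snaky, Finset.mem_insert, Finset.mem_singleton] at hp
    rcases hp with rfl | rfl | rfl | rfl | rfl | rfl
    · exact mem_F hRep h2 (by push_cast; omega) (by push_cast; omega)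
    · exact mem_F hRep h3 (by push_cast; omega) (by push_cast; omega)
    · exact mem_F hRep h4 (by push_cast; omega) (by push_cast; omega)
    · exact mem_F hRep h5 (by push_cast; omega) (by push_cast; omega)
    · exact mem_F hRep h0 (by push_cast; omega) (by push_cast; omega)
    · exact mem_F hRep h1 (by push_cast; omega) (by push_cast; omega)
  · obtain ⟨i, h0, h1, h2, h3, h4, h5⟩ := hit_spec h
    have hg := hG i h0
    refine ⟨(((i % 32 : ℕ) : ℤ) + (4), ((i / 32 : ℕ) : ℤ) + (1)), -1, -1, by norm_num, by norm_num, Or.inl fun p hp => ?_⟩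
    simp only [snaky, Finset.mem_insert, Finset.mem_singleton] at hp
    rcases hp with rfl | rfl | rfl | rfl | rfl | rfl
    · exact mem_F hRep h5 (by push_cast; omega) (by push_cast; omega)
    · exact mem_F hRep h4 (by push_cast; omega) (by push_cast; omega)
    · exact mem_F hRep h3 (by push_cast; omega) (by push_cast; omega)
    · exact mem_F hRep h2 (by push_cast; omega) (by push_cast; omega)
    · exact mem_F hRep h1 (by push_cast; omega) (by push_cast; omega)
    · exact mem_F hRep h0 (by push_cast; omega) (by push_cast; omega)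
  · obtain ⟨i, h0, h1, h2, h3, h4, h5⟩ := hit_spec h
    have hg := hG i h0
    refine ⟨(((i % 32 : ℕ) : ℤ) + (0), ((i / 32 : ℕ) : ℤ) + (0)), 1, 1, by norm_num, by norm_num, Or.inr fun p hp => ?_⟩
    simp only [snaky, Finset.mem_insert, Finset.mem_singleton] at hp
    rcases hp with rfl | rfl | rfl | rfl | rfl | rfl
    · exact mem_F hRep h0 (by push_cast; omega) (by push_cast; omega)
    · exact mem_F hRep h1 (by push_cast; omega) (by push_cast; omega)
    · exact mem_F hRep h2 (by push_cast; omega) (by push_cast; omega)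
    · exact mem_F hRep h3 (by push_cast; omega) (by push_cast; omega)
    · exact mem_F hRep h4 (by push_cast; omega) (by push_cast; omega)
    · exact mem_F hRep h5 (by push_cast; omega) (by push_cast; omega)
  · obtain ⟨i, h0, h1, h2, h3, h4, h5⟩ := hit_spec h
    have hg := hG i h0
    refine ⟨(((i % 32 : ℕ) : ℤ) + (0), ((i / 32 : ℕ) : ℤ) + (0)), -1, 1, by norm_num, by norm_num, Or.inr fun p hp => ?_⟩
    simp only [snaky, Finset.mem_insert, Finset.mem_singleton] at hp
    rcases hp with rfl | rfl | rfl | rfl | rfl | rfl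
    · exact mem_F hRep h0 (by push_cast; omega) (by push_cast; omega)
    · exact mem_F hRep h1 (by push_cast; omega) (by push_cast; omega)
    · exact mem_F hRep h2 (by push_cast; omega) (by push_cast; omega)
    · exact mem_F hRep h3 (by push_cast; omega) (by push_cast; omega)
    · exact mem_F hRep h4 (by push_cast; omega) (by push_cast; omega)
    · exact mem_F hRep h5 (by push_cast; omega) (by push_cast; omega)
  · obtain ⟨i, h0, h1, h2, h3, h4, h5⟩ := hit_spec h
    have hg := hG i h0
    refine ⟨(((i % 32 : ℕ) : ℤ) + (1), ((i / 32 : ℕ) : ℤ) + (4)), -1, -1, by norm_num, by norm_num, Or.inr fun p hp => ?_⟩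
    simp only [snaky, Finset.mem_insert, Finset.mem_singleton] at hp
    rcases hp with rfl | rfl | rfl | rfl | rfl | rfl
    · exact mem_F hRep h5 (by push_cast; omega) (by push_cast; omega)
    · exact mem_F hRep h4 (by push_cast; omega) (by push_cast; omega)
    · exact mem_F hRep h3 (by push_cast; omega) (by push_cast; omega)
    · exact mem_F hRep h2 (by push_cast; omega) (by push_cast; omega)
    · exact mem_F hRep h1 (by push_cast; omega) (by push_cast; omega)
    · exact mem_F hRep h0 (by push_cast; omega) (by push_cast; omega)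
  · obtain ⟨i, h0, h1, h2, h3, h4, h5⟩ := hit_spec h
    have hg := hG i h0
    refine ⟨(((i % 32 : ℕ) : ℤ) + (-1), ((i / 32 : ℕ) : ℤ) + (4)), 1, -1, by norm_num, by norm_num, Or.inr fun p hp => ?_⟩
    simp only [snaky, Finset.mem_insert, Finset.mem_singleton] at hp
    rcases hp with rfl | rfl | rfl | rfl | rfl | rfl
    · exact mem_F hRep h5 (by push_cast; omega) (by push_cast; omega)
    · exact mem_F hRep h4 (by push_cast; omega) (by push_cast; omega)
    · exact mem_F hRep h3 (by push_cast; omega) (by push_cast; omega)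
    · exact mem_F hRep h2 (by push_cast; omega) (by push_cast; omega)
    · exact mem_F hRep h1 (by push_cast; omega) (by push_cast; omega)
    · exact mem_F hRep h0 (by push_cast; omega) (by push_cast; omega)

/-- union of the zones of the trees of a forest -/
def uz : Forest → ℕ
  | .nil => 0
  | .nd a kids next => (1 <<< a) ||| uz kids ||| uz next

/-- intersection of the zones of the trees of a (nonempty) forest -/
def iz : Forest → ℕ
  | .nil => 0
  | .nd a kids next =>
    match next with
    | .nil => (1 <<< a) ||| uz kids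
    | _ => ((1 <<< a) ||| uz kids) &&& iz next

lemma chk_zones (f : Forest) : ∀ n M, (chk f n M).2 = (uz f, iz f) := by
  induction f with
  | nil => intro n M; rfl
  | nd a kids next ih1 ih2 =>
    intro n M
    have h1 := ih1 (n - 1) (M ||| (1 <<< a))
    have h2 := ih2 n M
    rw [chk]
    generalize chk kids (n - 1) (M ||| (1 <<< a)) = r1 at h1 ⊢
    generalize chk next n M = r2 at h2 ⊢
    obtain ⟨ok1, u1, i1⟩ := r1
    obtain ⟨ok2, u2, i2⟩ := r2
    simp only [Prod.mk.injEq] at h1 h2
    obtain ⟨rfl, rfl⟩ := h1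
    obtain ⟨rfl, rfl⟩ := h2
    cases next <;> rfl

lemma chk_ok_nd (a : ℕ) (kids next : Forest) (n M : ℕ) :
    (chk (.nd a kids next) n M).1 = (n != 0 && !(M.testBit a) && guard a &&
        (match kids with
          | .nil => snakyIn (M ||| (1 <<< a))
          | _ => (chk kids (n - 1) (M ||| (1 <<< a))).1 && iz kids == 0) && (chk next n M).1) := by
  have h1 := chk_zones kids (n - 1) (M ||| (1 <<< a))
  rw [chk]
  generalize chk kids (n - 1) (M ||| (1 <<< a)) = r1 at h1 ⊢
  generalize chk next n M = r2
  obtain ⟨ok1, u1, i1⟩ := r1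
  obtain ⟨ok2, u2, i2⟩ := r2
  simp only [Prod.mk.injEq] at h1
  obtain ⟨rfl, rfl⟩ := h1
  rfl

/-- every tree of the forest wins against every Breaker set avoiding its zone. -/
def AllW (n : ℕ) (F : Finset Cell) : Forest → Prop
  | .nil => True
  | .nd a kids next => (∀ B, Disj B ((1 <<< a) ||| uz kids) → W n F B) ∧ AllW n F next

lemma select {n : ℕ} {F : Finset Cell} : ∀ f : Forest, f ≠ .nil → AllW n F f →
    ∀ B : Finset Cell, Disj B (uz f) → ∀ b : Cell, (∀ k, dec k = b → (iz f).testBit k = false) →
      W n F (insert b B) := by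
  intro f
  induction f with
  | nil => intro h; exact absurd rfl h
  | nd a kids next _ ih2 =>
    intro _ hA B hB b hb
    by_cases hz : ∃ k, dec k = b ∧ ((1 <<< a) ||| uz kids).testBit k = true
    · obtain ⟨k, hk, hkz⟩ := hz
      have hbk := hb k hk
      have hne : next ≠ .nil := by
        rintro rfl
        simp only [iz] at hbk
        rw [hkz] at hbk
        exact absurd hbk (by simp)
      have hiz : iz (.nd a kids next) = ((1 <<< a) ||| uz kids) &&& iz next := by
        cases next with
        | nil => exact absurd rfl hne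
        | nd _ _ _ => rfl
      rw [hiz, Nat.testBit_and, hkz, Bool.true_and] at hbk
      refine ih2 hne hA.2 B ?_ b ?_
      · intro j hj
        apply hB j
        simp only [uz, Nat.testBit_or, hj, Bool.or_true]
      · intro j hj
        have : j = k := dec_inj (hj.trans hk.symm)
        rw [this]; exact hbk
    · push Not at hz
      apply hA.1
      intro j hj
      rw [Finset.mem_insert, not_or]
      refine ⟨fun h => ?_, ?_⟩
      · exact absurd hj (hz j h)
      · apply hB j
        simp only [uz]
        rw [Nat.testBit_or, hj, Bool.true_or]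

theorem allW_of_chk : ∀ (f : Forest) (n M : ℕ) (F : Finset Cell), (chk f n M).1 = true → Rep M F →
    Guarded M → AllW n F f := by
  intro f
  induction f with
  | nil => intro n M F _ _ _; trivial
  | nd a kids next ih1 ih2 =>
    intro n M F h hRep hG
    rw [chk_ok_nd] at h
    simp only [Bool.and_eq_true, bne_iff_ne, ne_eq, Bool.not_eq_true'] at h
    obtain ⟨⟨⟨⟨hn, ha⟩, hg⟩, hk⟩, hnext⟩ := h
    refine ⟨?_, ih2 n M F hnext hRep hG⟩
    intro B hB
    obtain ⟨n', rfl⟩ := Nat.exists_eq_succ_of_ne_zero hn
    have hRep' := rep_insert hRep a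
    have hG' := guarded_insert hG hg
    refine Or.inr ⟨dec a, ?_, ?_, ?_⟩
    · intro hm
      obtain ⟨k, hk1, hk2⟩ := (hRep _).1 hm
      rw [dec_inj hk2] at hk1
      rw [hk1] at ha
      exact absurd ha (by simp)
    · apply hB a
      simp
    · intro b _ _
      cases kids with
      | nil => exact W_of_copy (snakyIn_spec hRep' hG' hk) _ _
      | nd a' k' n'' =>
        simp only [Bool.and_eq_true, beq_iff_eq] at hk
        have hA := ih1 (n' + 1 - 1) _ _ hk.1 hRep' hG'
        refine select _ (by simp) hA B ?_ b ?_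
        · intro j hj
          apply hB j
          rw [Nat.testBit_or, hj, Bool.or_true]
        · intro j _
          rw [hk.2]; simp

/-- **Soundness of the checker.** -/
theorem W_of_chk (a : ℕ) (kids : Forest) (h : (chk (.nd a kids .nil) 21 0).1 = true) : W 21 ∅ ∅ :=
  (allW_of_chk _ 21 0 ∅ h rep_zero guarded_zero).1 ∅ (by intro k _; simp)

end Crest.Agent.S0047Aux
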