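import Mathlib
import Crest.Prelude.Def_PolyominoGame

/-!
# Certificate checker for the Snaky Maker–Breaker game (S0047)

A certificate is a forest `F` in first-child / next-sibling form.  Breaker's stones are never
tracked: the invariant is that all of them lie outside the *zone* (set of all Maker moves) of the
current tree.
-/

set_option autoImplicit false

namespace Crest.Agent.S0047Aux.ZC

open Crest.CombinatoricsR.PolyominoGame

/-- certificate forests (first child / next sibling) -/
inductive F where
  | nil : F
  | lf : Nat → Nat → F → F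
  | nd : Nat → F → F → F

abbrev Cell := ℤ × ℤ

/-- cell with index `i = x + 32 * y` -/
def cellOf (i : ℕ) : Cell := (((i % 32 : ℕ) : ℤ), ((i / 32 : ℕ) : ℤ))

theorem cellOf_inj {i j : ℕ} (h : cellOf i = cellOf j) : i = j := by
  simp only [cellOf, Prod.mk.injEq, Nat.cast_inj] at h
  omega

theorem cellOf_add (s dx dy : ℕ) (h : s % 32 + dx < 32) :
    cellOf (s + (dx + 32 * dy)) = (((s % 32 : ℕ) : ℤ) + dx, ((s / 32 : ℕ) : ℤ) + dy) := by
  simp only [cellOf, Prod.mk.injEq]
  constructor
  · have : (s + (dx + 32 * dy)) % 32 = s % 32 + dx := by omega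
    rw [this]; push_cast; ring
  · have : (s + (dx + 32 * dy)) / 32 = s / 32 + dy := by omega
    rw [this]; push_cast; ring

/-! ## the win test -/

/-- bit masks of the eight orientations (anchored at the lower left corner of the bounding box) -/
def omask : Nat → Nat
  | 0 => 103079215119
  | 1 => 12884901918
  | 2 => 64424509464
  | 3 => 128849018883
  | 4 => 680564734079561414487988971722172792833
  | 5 => 340282367158622951043061108368409100290
  | 6 => 340282367000166625996085689111906615298
  | 7 => 680564734000333251992171378210928328705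
  | _ => 0

/-- `win M h`: the mask `M` contains the Snaky copy described by the hint `h = 1024 * o + s`. -/
def win (M h : Nat) : Bool :=
  (Nat.ble (h % 32) 27) && (Nat.blt (h / 1024) 8) &&
    (Nat.beq ((M >>> (h % 1024)) &&& omask (h / 1024)) (omask (h / 1024)))

theorem bit_of_mask {M s mask off : ℕ} (h : (M >>> s) &&& mask = mask)
    (hb : mask.testBit off = true) : M.testBit (s + off) = true := by
  have := congrArg (fun z => z.testBit off) h
  simp only [Nat.testBit_and, Nat.testBit_shiftRight, hb, Bool.and_true] at this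
  exact this

theorem mem_of_mask {M s mask : ℕ} {X : Set Cell} (hX : ∀ i, M.testBit i = true → cellOf i ∈ X)
    (hs : s % 32 ≤ 27) (h : (M >>> s) &&& mask = mask) (dx dy : ℕ) (hdx : dx ≤ 4)
    (hb : mask.testBit (dx + 32 * dy) = true) :
    (((s % 32 : ℕ) : ℤ) + dx, ((s / 32 : ℕ) : ℤ) + dy) ∈ X := by
  rw [← cellOf_add s dx dy (by omega)]
  exact hX _ (bit_of_mask h hb)

theorem win_sound {M h : ℕ} {X : Set Cell} (hX : ∀ i, M.testBit i = true → cellOf i ∈ X)
    (hw : win M h = true) : ContainsCopy X := by
  simp only [win, Bool.and_eq_true, Nat.ble_eq, Nat.blt_eq, Nat.beq_eq] at hw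
  obtain ⟨⟨h1, h2⟩, h3⟩ := hw
  set s := h % 1024 with hs
  have hs32 : s % 32 ≤ 27 := by omega
  set o := h / 1024 with ho
  have key := fun dx dy hdx hb => mem_of_mask (mask := omask o) hX hs32 h3 dx dy hdx hb
  clear_value o s
  set x0 : ℤ := ((s % 32 : ℕ) : ℤ)
  set y0 : ℤ := ((s / 32 : ℕ) : ℤ)
  interval_cases o
  · refine ⟨(x0, y0), 1, 1, Or.inl rfl, Or.inl rfl, Or.inl ?_⟩
    have a0 := key 0 0 (by norm_num) (by decide)
    have a1 := key 1 0 (by norm_num) (by decide)
    have a2 := key 2 0 (by norm_num) (by decide)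
    have a3 := key 3 0 (by norm_num) (by decide)
    have a4 := key 3 1 (by norm_num) (by decide)
    have a5 := key 4 1 (by norm_num) (by decide)
    intro p hp
    simp only [snaky, Finset.mem_insert, Finset.mem_singleton] at hp
    rcases hp with rfl | rfl | rfl | rfl | rfl | rfl
    · convert a0 using 2 <;> push_cast <;> ring
    · convert a1 using 2 <;> push_cast <;> ring
    · convert a2 using 2 <;> push_cast <;> ring
    · convert a3 using 2 <;> push_cast <;> ring
    · convert a4 using 2 <;> push_cast <;> ring
    · convert a5 using 2 <;> push_cast <;> ring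
  · refine ⟨(x0 + 4, y0), -1, 1, Or.inr rfl, Or.inl rfl, Or.inl ?_⟩
    have a0 := key 4 0 (by norm_num) (by decide)
    have a1 := key 3 0 (by norm_num) (by decide)
    have a2 := key 2 0 (by norm_num) (by decide)
    have a3 := key 1 0 (by norm_num) (by decide)
    have a4 := key 1 1 (by norm_num) (by decide)
    have a5 := key 0 1 (by norm_num) (by decide)
    intro p hp
    simp only [snaky, Finset.mem_insert, Finset.mem_singleton] at hp
    rcases hp with rfl | rfl | rfl | rfl | rfl | rfl
    · convert a0 using 2 <;> push_cast <;> ring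
    · convert a1 using 2 <;> push_cast <;> ring
    · convert a2 using 2 <;> push_cast <;> ring
    · convert a3 using 2 <;> push_cast <;> ring
    · convert a4 using 2 <;> push_cast <;> ring
    · convert a5 using 2 <;> push_cast <;> ring
  · refine ⟨(x0, y0 + 1), 1, -1, Or.inl rfl, Or.inr rfl, Or.inl ?_⟩
    have a0 := key 0 1 (by norm_num) (by decide)
    have a1 := key 1 1 (by norm_num) (by decide)
    have a2 := key 2 1 (by norm_num) (by decide)
    have a3 := key 3 1 (by norm_num) (by decide)
    have a4 := key 3 0 (by norm_num) (by decide)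
    have a5 := key 4 0 (by norm_num) (by decide)
    intro p hp
    simp only [snaky, Finset.mem_insert, Finset.mem_singleton] at hp
    rcases hp with rfl | rfl | rfl | rfl | rfl | rfl
    · convert a0 using 2 <;> push_cast <;> ring
    · convert a1 using 2 <;> push_cast <;> ring
    · convert a2 using 2 <;> push_cast <;> ring
    · convert a3 using 2 <;> push_cast <;> ring
    · convert a4 using 2 <;> push_cast <;> ring
    · convert a5 using 2 <;> push_cast <;> ring
  · refine ⟨(x0 + 4, y0 + 1), -1, -1, Or.inr rfl, Or.inr rfl, Or.inl ?_⟩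
    have a0 := key 4 1 (by norm_num) (by decide)
    have a1 := key 3 1 (by norm_num) (by decide)
    have a2 := key 2 1 (by norm_num) (by decide)
    have a3 := key 1 1 (by norm_num) (by decide)
    have a4 := key 1 0 (by norm_num) (by decide)
    have a5 := key 0 0 (by norm_num) (by decide)
    intro p hp
    simp only [snaky, Finset.mem_insert, Finset.mem_singleton] at hp
    rcases hp with rfl | rfl | rfl | rfl | rfl | rfl
    · convert a0 using 2 <;> push_cast <;> ring
    · convert a1 using 2 <;> push_cast <;> ring
    · convert a2 using 2 <;> push_cast <;> ring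
    · convert a3 using 2 <;> push_cast <;> ring
    · convert a4 using 2 <;> push_cast <;> ring
    · convert a5 using 2 <;> push_cast <;> ring
  · refine ⟨(x0, y0), 1, 1, Or.inl rfl, Or.inl rfl, Or.inr ?_⟩
    have a0 := key 0 0 (by norm_num) (by decide)
    have a1 := key 0 1 (by norm_num) (by decide)
    have a2 := key 0 2 (by norm_num) (by decide)
    have a3 := key 0 3 (by norm_num) (by decide)
    have a4 := key 1 3 (by norm_num) (by decide)
    have a5 := key 1 4 (by norm_num) (by decide)
    intro p hp
    simp only [snaky, Finset.mem_insert, Finset.mem_singleton] at hp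
    rcases hp with rfl | rfl | rfl | rfl | rfl | rfl
    · convert a0 using 2 <;> push_cast <;> ring
    · convert a1 using 2 <;> push_cast <;> ring
    · convert a2 using 2 <;> push_cast <;> ring
    · convert a3 using 2 <;> push_cast <;> ring
    · convert a4 using 2 <;> push_cast <;> ring
    · convert a5 using 2 <;> push_cast <;> ring
  · refine ⟨(x0 + 1, y0), -1, 1, Or.inr rfl, Or.inl rfl, Or.inr ?_⟩
    have a0 := key 1 0 (by norm_num) (by decide)
    have a1 := key 1 1 (by norm_num) (by decide)
    have a2 := key 1 2 (by norm_num) (by decide)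
    have a3 := key 1 3 (by norm_num) (by decide)
    have a4 := key 0 3 (by norm_num) (by decide)
    have a5 := key 0 4 (by norm_num) (by decide)
    intro p hp
    simp only [snaky, Finset.mem_insert, Finset.mem_singleton] at hp
    rcases hp with rfl | rfl | rfl | rfl | rfl | rfl
    · convert a0 using 2 <;> push_cast <;> ring
    · convert a1 using 2 <;> push_cast <;> ring
    · convert a2 using 2 <;> push_cast <;> ring
    · convert a3 using 2 <;> push_cast <;> ring
    · convert a4 using 2 <;> push_cast <;> ring
    · convert a5 using 2 <;> push_cast <;> ring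
  · refine ⟨(x0, y0 + 4), 1, -1, Or.inl rfl, Or.inr rfl, Or.inr ?_⟩
    have a0 := key 0 4 (by norm_num) (by decide)
    have a1 := key 0 3 (by norm_num) (by decide)
    have a2 := key 0 2 (by norm_num) (by decide)
    have a3 := key 0 1 (by norm_num) (by decide)
    have a4 := key 1 1 (by norm_num) (by decide)
    have a5 := key 1 0 (by norm_num) (by decide)
    intro p hp
    simp only [snaky, Finset.mem_insert, Finset.mem_singleton] at hp
    rcases hp with rfl | rfl | rfl | rfl | rfl | rfl
    · convert a0 using 2 <;> push_cast <;> ring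
    · convert a1 using 2 <;> push_cast <;> ring
    · convert a2 using 2 <;> push_cast <;> ring
    · convert a3 using 2 <;> push_cast <;> ring
    · convert a4 using 2 <;> push_cast <;> ring
    · convert a5 using 2 <;> push_cast <;> ring
  · refine ⟨(x0 + 1, y0 + 4), -1, -1, Or.inr rfl, Or.inr rfl, Or.inr ?_⟩
    have a0 := key 1 4 (by norm_num) (by decide)
    have a1 := key 1 3 (by norm_num) (by decide)
    have a2 := key 1 2 (by norm_num) (by decide)
    have a3 := key 1 1 (by norm_num) (by decide)
    have a4 := key 0 1 (by norm_num) (by decide)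
    have a5 := key 0 0 (by norm_num) (by decide)
    intro p hp
    simp only [snaky, Finset.mem_insert, Finset.mem_singleton] at hp
    rcases hp with rfl | rfl | rfl | rfl | rfl | rfl
    · convert a0 using 2 <;> push_cast <;> ring
    · convert a1 using 2 <;> push_cast <;> ring
    · convert a2 using 2 <;> push_cast <;> ring
    · convert a3 using 2 <;> push_cast <;> ring
    · convert a4 using 2 <;> push_cast <;> ring
    · convert a5 using 2 <;> push_cast <;> ring


/-! ## semantics of certificates -/

/-- all Maker moves occurring in a forest -/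
def zone : F → Set Cell
  | .nil => ∅
  | .lf m _ n => {cellOf m} ∪ zone n
  | .nd m k n => ({cellOf m} ∪ zone k) ∪ zone n

open Classical in
/-- first tree of the forest whose zone avoids `b`: returns its root move and its children -/
noncomputable def pick : F → Cell → Option (Cell × F)
  | .nil, _ => none
  | .lf m _ n, b => if b = cellOf m then pick n b else some (cellOf m, .nil)
  | .nd m k n, b => if b = cellOf m ∨ b ∈ zone k then pick n b else some (cellOf m, k)

/-- semantic validity of a forest, `M` = Maker's cells so far, `d` = number of Maker moves left -/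
def Valid : F → Set Cell → ℕ → Prop
  | .nil, _, _ => True
  | .lf m _ n, M, d => (cellOf m ∉ M ∧ 1 ≤ d ∧ ContainsCopy (insert (cellOf m) M)) ∧ Valid n M d
  | .nd m k n, M, d => (cellOf m ∉ M ∧ 1 ≤ d ∧ Valid k (insert (cellOf m) M) (d - 1) ∧
      ∀ b, (pick k b).isSome) ∧ Valid n M d

/-- what we know about a picked tree -/
def NodeOK (c : Cell) (k : F) (M : Set Cell) (d : ℕ) : Prop :=
  c ∉ M ∧ 1 ≤ d ∧ Valid k (insert c M) (d - 1) ∧
    (ContainsCopy (insert c M) ∨ ∀ b, (pick k b).isSome)

theorem pick_spec {f : F} {M : Set Cell} {d : ℕ} (hv : Valid f M d) {b c : Cell} {k : F}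
    (hp : pick f b = some (c, k)) :
    NodeOK c k M d ∧ b ≠ c ∧ b ∉ zone k ∧ c ∈ zone f ∧ zone k ⊆ zone f ∧ (0 ≤ c.1 ∧ c.1 < 32) := by
  induction f with
  | nil => simp [pick] at hp
  | lf m h n ih =>
    simp only [pick] at hp
    obtain ⟨⟨h1, h2, h3⟩, h4⟩ := hv
    split_ifs at hp with hb
    · obtain ⟨a1, a2, a3, a4, a5, a6⟩ := ih h4 hp
      exact ⟨a1, a2, a3, Or.inr a4, fun x hx => Or.inr (a5 hx), a6⟩
    · simp only [Option.some.injEq, Prod.mk.injEq] at hp
      obtain ⟨rfl, rfl⟩ := hp
      refine ⟨⟨h1, h2, trivial, Or.inl h3⟩, hb, by simp [zone], Or.inl rfl, by simp [zone], ?_⟩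
      simp only [cellOf]
      constructor <;> omega
  | nd m k' n _ ih =>
    simp only [pick] at hp
    obtain ⟨⟨h1, h2, h3, h5⟩, h4⟩ := hv
    split_ifs at hp with hb
    · obtain ⟨a1, a2, a3, a4, a5, a6⟩ := ih h4 hp
      exact ⟨a1, a2, a3, Or.inr a4, fun x hx => Or.inr (a5 hx), a6⟩
    · simp only [Option.some.injEq, Prod.mk.injEq] at hp
      obtain ⟨rfl, rfl⟩ := hp
      push Not at hb
      refine ⟨⟨h1, h2, h3, Or.inr h5⟩, hb.1, hb.2, Or.inl (Or.inl rfl),
        fun x hx => Or.inl (Or.inr hx), ?_⟩
      simp only [cellOf]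
      constructor <;> omega

theorem zone_sub_range {f : F} {c : Cell} (h : c ∈ zone f) : ∃ i, c = cellOf i := by
  induction f with
  | nil => simp [zone] at h
  | lf m _ n ih =>
    rcases h with h | h
    · exact ⟨m, h⟩
    · exact ih h
  | nd m k n ihk ih =>
    rcases h with (h | h) | h
    · exact ⟨m, h⟩
    · exact ihk h
    · exact ih h

/-! ## the policy -/

noncomputable def step (s : Option (Cell × F)) (b : Cell) : Option (Cell × F) :=
  s.bind fun p => pick p.2 b

noncomputable def run (root : F) (l : List Cell) : Option (Cell × F) :=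
  l.foldl step (pick root (-1, -1))

/-- a cell far to the right of everything played so far -/
def fresh (l : List Cell) : Cell := (32 + (l.length : ℤ) + (l.map fun c => |c.1|).sum, 0)

noncomputable def policy (root : F) (l : List Cell) : Cell :=
  match run root l with
  | some p => p.1
  | none => fresh l

section game

variable (root : F) (b : ℕ → Cell)

/-- state after `k` Breaker replies -/
noncomputable def st (k : ℕ) : Option (Cell × F) := run root ((List.range k).map b)

theorem st_succ (k : ℕ) : st root b (k + 1) = step (st root b k) (b k) := by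
  simp [st, run, List.range_succ, List.foldl_append]

def X (k : ℕ) : ℤ := 32 + (k : ℤ) + ∑ i ∈ Finset.range k, |(b i).1|

theorem fresh_eq (k : ℕ) : fresh ((List.range k).map b) = (X b k, 0) := by
  simp only [fresh, X, List.length_map, List.length_range, Prod.mk.injEq, and_true, List.map_map]
  have : (List.map ((fun c : Cell => |c.1|) ∘ b) (List.range k)).sum
      = ∑ i ∈ Finset.range k, |(b i).1| := by
    induction k with
    | zero => simp
    | succ n ih => simp [List.range_succ, Finset.sum_range_succ, ih]
  rw [this]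

theorem X_lt {j k : ℕ} (h : j < k) : X b j < X b k := by
  have : ∑ i ∈ Finset.range j, |(b i).1| ≤ ∑ i ∈ Finset.range k, |(b i).1| :=
    Finset.sum_le_sum_of_subset_of_nonneg (by
      intro x hx; simp only [Finset.mem_range] at hx ⊢; omega) (fun _ _ _ => abs_nonneg _)
  have h' : (j : ℤ) < k := by exact_mod_cast h
  simp only [X]; linarith

theorem b_lt_X {j k : ℕ} (h : j < k) : (b j).1 < X b k := by
  have : |(b j).1| ≤ ∑ i ∈ Finset.range k, |(b i).1| :=
    Finset.single_le_sum (f := fun i => |(b i).1|) (fun _ _ => abs_nonneg _)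
      (Finset.mem_range.2 h)
  have h2 := le_abs_self (b j).1
  have h' : (0 : ℤ) ≤ k := by positivity
  simp only [X]; linarith

/-- Maker's claims -/
noncomputable def cl (k : ℕ) : Cell := policy root ((List.range k).map b)

theorem cl_eq_makerClaim (k : ℕ) : makerClaim (policy root) b k = cl root b k := rfl

theorem cl_some {k : ℕ} {p : Cell × F} (h : st root b k = some p) : cl root b k = p.1 := by
  simp only [cl, policy]
  rw [show run root ((List.range k).map b) = some p from h]

theorem cl_none {k : ℕ} (h : st root b k = none) : cl root b k = (X b k, 0) := by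
  simp only [cl, policy]
  rw [show run root ((List.range k).map b) = none from h, fresh_eq]

/-- the invariant -/
def Inv (k : ℕ) : Prop :=
  match st root b k with
  | some p => NodeOK p.1 p.2 {c | ∃ j, j < k ∧ c = cl root b j} (21 - k) ∧
      (∀ j, j < k → b j ≠ p.1 ∧ b j ∉ zone p.2) ∧ (0 ≤ p.1.1 ∧ p.1.1 < 32)
  | none => ContainsCopy {c | ∃ j, j < k ∧ c = cl root b j}

theorem containsCopy_mono {A B : Set Cell} (h : A ⊆ B) (hA : ContainsCopy A) : ContainsCopy B := by
  obtain ⟨t, e1, e2, h1, h2, h3⟩ := hA
  refine ⟨t, e1, e2, h1, h2, ?_⟩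
  rcases h3 with h3 | h3
  · exact Or.inl fun p hp => h (h3 p hp)
  · exact Or.inr fun p hp => h (h3 p hp)

theorem claims_succ (k : ℕ) :
    {c | ∃ j, j < k + 1 ∧ c = cl root b j} = insert (cl root b k) {c | ∃ j, j < k ∧ c = cl root b j} := by
  ext c
  simp only [Set.mem_ofPred_eq, Set.mem_insert_iff]
  constructor
  · rintro ⟨j, hj, rfl⟩
    rcases Nat.lt_succ_iff_lt_or_eq.1 hj with h | rfl
    · exact Or.inr ⟨j, h, rfl⟩
    · exact Or.inl rfl
  · rintro (rfl | ⟨j, hj, rfl⟩)
    · exact ⟨k, Nat.lt_succ_self k, rfl⟩
    · exact ⟨j, Nat.lt_succ_of_lt hj, rfl⟩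

theorem inv_zero (hv : Valid root ∅ 21) (hne : (pick root (-1, -1)).isSome) : Inv root b 0 := by
  obtain ⟨p, hp⟩ := Option.isSome_iff_exists.1 hne
  have hst : st root b 0 = some p := by simp [st, run, hp]
  obtain ⟨a1, -, -, -, -, a6⟩ := pick_spec (c := p.1) (k := p.2) hv hp
  simp only [Inv, hst]
  refine ⟨?_, by simp, a6⟩
  simpa using a1

theorem inv_succ {k : ℕ} (h : Inv root b k) : Inv root b (k + 1) := by
  rcases hst : st root b k with _ | p
  · have hst' : st root b (k + 1) = none := by rw [st_succ, hst]; rfl
    simp only [Inv, hst] at h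
    simp only [Inv, hst']
    refine containsCopy_mono ?_ h
    rintro c ⟨j, hj, hc⟩
    exact ⟨j, Nat.lt_succ_of_lt hj, hc⟩
  · simp only [Inv, hst] at h
    obtain ⟨⟨n1, n2, n3, n4⟩, hB, -⟩ := h
    have hcl : cl root b k = p.1 := cl_some root b hst
    have hstep : st root b (k + 1) = pick p.2 (b k) := by rw [st_succ, hst]; rfl
    rcases hpk : pick p.2 (b k) with _ | q
    · have hst' : st root b (k + 1) = none := by rw [hstep, hpk]
      simp only [Inv, hst']
      rw [claims_succ, hcl]
      rcases n4 with n4 | n4
      · exact n4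
      · have := n4 (b k); rw [hpk] at this; simp at this
    · have hst' : st root b (k + 1) = some q := by rw [hstep, hpk]
      obtain ⟨a1, a2, a3, a4, a5, a6⟩ := pick_spec (c := q.1) (k := q.2) n3 hpk
      simp only [Inv, hst']
      rw [claims_succ, hcl]
      refine ⟨?_, ?_, a6⟩
      · have : 21 - (k + 1) = 21 - k - 1 := by omega
        rw [this]; exact a1
      · intro j hj
        rcases Nat.lt_succ_iff_lt_or_eq.1 hj with hj | rfl
        · have := (hB j hj).2
          exact ⟨fun e => this (e ▸ a4), fun e => this (a5 e)⟩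
        · exact ⟨a2, a3⟩

theorem inv_all (hv : Valid root ∅ 21) (hne : (pick root (-1, -1)).isSome) (k : ℕ) :
    Inv root b k := by
  induction k with
  | zero => exact inv_zero root b hv hne
  | succ n ih => exact inv_succ root b ih

theorem cl_le_X (hv : Valid root ∅ 21) (hne : (pick root (-1, -1)).isSome) (k : ℕ) :
    (cl root b k).1 ≤ X b k := by
  have h := inv_all root b hv hne k
  rcases hst : st root b k with _ | p
  · rw [cl_none root b hst]
  · simp only [Inv, hst] at h
    rw [cl_some root b hst]
    have : (0 : ℤ) ≤ ∑ i ∈ Finset.range k, |(b i).1| := Finset.sum_nonneg fun _ _ => abs_nonneg _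
    have h' : (0 : ℤ) ≤ k := by positivity
    simp only [X]; linarith [h.2.2.2]

theorem legal (hv : Valid root ∅ 21) (hne : (pick root (-1, -1)).isSome) (k : ℕ) :
    (∀ j, j < k → cl root b k ≠ cl root b j) ∧ (∀ j, j < k → cl root b k ≠ b j) := by
  have h := inv_all root b hv hne k
  rcases hst : st root b k with _ | p
  · rw [cl_none root b hst]
    constructor
    · intro j hj e
      have h1 := cl_le_X root b hv hne j
      have h2 := X_lt b hj
      rw [← e] at h1
      simp only at h1
      omega
    · intro j hj e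
      have h1 := b_lt_X b hj
      rw [← e] at h1
      simp only at h1
      omega
  · simp only [Inv, hst] at h
    rw [cl_some root b hst]
    obtain ⟨⟨n1, -⟩, hB, -⟩ := h
    exact ⟨fun j hj e => n1 ⟨j, hj, e⟩, fun j hj e => (hB j hj).1 e.symm⟩

theorem wins (hv : Valid root ∅ 21) (hne : (pick root (-1, -1)).isSome) :
    ContainsCopy {c | ∃ j, j ≤ 20 ∧ c = cl root b j} := by
  have h := inv_all root b hv hne 21
  have hset : {c | ∃ j, j ≤ 20 ∧ c = cl root b j} = {c | ∃ j, j < 21 ∧ c = cl root b j} := by
    ext c; simp only [Set.mem_ofPred_eq, Nat.lt_succ_iff]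
  rw [hset]
  rcases hst : st root b 21 with _ | p
  · simpa only [Inv, hst] using h
  · simp only [Inv, hst] at h
    have := h.1.2.1
    omega

end game

/-- soundness at the semantic level -/
theorem statement_of_valid (root : F) (hv : Valid root ∅ 21)
    (hne : (pick root (-1, -1)).isSome) :
    ∃ σ : List (ℤ × ℤ) → ℤ × ℤ, ∀ b : ℕ → ℤ × ℤ,
      (∀ k : ℕ, k < 20 →
        (∀ j : ℕ, j ≤ k → b k ≠ makerClaim σ b j) ∧
        (∀ j : ℕ, j < k → b k ≠ b j)) →
      (∀ k : ℕ, k ≤ 20 →
        (∀ j : ℕ, j < k → makerClaim σ b k ≠ makerClaim σ b j) ∧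
        (∀ j : ℕ, j < k → makerClaim σ b k ≠ b j)) ∧
      ContainsCopy {c | ∃ j : ℕ, j ≤ 20 ∧ c = makerClaim σ b j} :=
  ⟨policy root, fun b _ => ⟨fun k _ => legal root b hv hne k, wins root b hv hne⟩⟩


/-! ## the boolean checker (meant to be evaluated by the kernel) -/

/-- mask of all Maker moves of a forest -/
def uni : F → Nat
  | .nil => 0
  | .lf m _ n => Nat.lor (Nat.shiftLeft 1 m) (uni n)
  | .nd m k n => Nat.lor (Nat.lor (Nat.shiftLeft 1 m) (uni k)) (uni n)

/-- intersect `acc` with the zones of all trees of the forest -/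
def intAcc : F → Nat → Nat
  | .nil, acc => acc
  | .lf m _ n, acc => intAcc n (Nat.land acc (Nat.shiftLeft 1 m))
  | .nd m k n, acc => intAcc n (Nat.land acc (Nat.lor (Nat.shiftLeft 1 m) (uni k)))

/-- intersection of the zones of all trees of the forest (`1` for the empty forest) -/
def int0 : F → Nat
  | .nil => 1
  | .lf m _ n => intAcc n (Nat.shiftLeft 1 m)
  | .nd m k n => intAcc n (Nat.lor (Nat.shiftLeft 1 m) (uni k))

/-- the checker: `M` = mask of Maker's cells, `d` = number of Maker moves still allowed -/
def okF : F → Nat → Nat → Bool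
  | .nil, _, _ => true
  | .lf m h n, M, d =>
      Nat.beq (Nat.land M (Nat.shiftLeft 1 m)) 0 && Nat.ble 1 d &&
        win (Nat.lor M (Nat.shiftLeft 1 m)) h && okF n M d
  | .nd m k n, M, d =>
      Nat.beq (Nat.land M (Nat.shiftLeft 1 m)) 0 && Nat.ble 1 d && Nat.beq (int0 k) 0 &&
        okF k (Nat.lor M (Nat.shiftLeft 1 m)) (Nat.sub d 1) && okF n M d

/-- top level check -/
def check : F → Bool
  | .nil => false
  | t => okF t 0 21

theorem testBit_bit (m i : ℕ) : (Nat.shiftLeft 1 m).testBit i = decide (m = i) := by
  show (1 <<< m).testBit i = _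
  rw [Nat.one_shiftLeft, Nat.testBit_two_pow]

theorem testBit_lor (a b i : ℕ) : (Nat.lor a b).testBit i = (a.testBit i || b.testBit i) :=
  Nat.testBit_or a b i

theorem testBit_land (a b i : ℕ) : (Nat.land a b).testBit i = (a.testBit i && b.testBit i) :=
  Nat.testBit_and a b i

theorem uni_spec {f : F} {i : ℕ} (h : cellOf i ∈ zone f) : (uni f).testBit i = true := by
  induction f with
  | nil => simp [zone] at h
  | lf m _ n ih =>
    simp only [uni, testBit_lor, testBit_bit, Bool.or_eq_true, decide_eq_true_eq]
    rcases h with h | h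
    · exact Or.inl (cellOf_inj h).symm
    · exact Or.inr (ih h)
  | nd m k n ihk ih =>
    simp only [uni, testBit_lor, testBit_bit, Bool.or_eq_true, decide_eq_true_eq]
    rcases h with (h | h) | h
    · exact Or.inl (Or.inl (cellOf_inj h).symm)
    · exact Or.inl (Or.inr (ihk h))
    · exact Or.inr (ih h)

theorem intAcc_spec {f : F} {i : ℕ} (hp : pick f (cellOf i) = none) {acc : ℕ}
    (ha : acc.testBit i = true) : (intAcc f acc).testBit i = true := by
  induction f generalizing acc with
  | nil => exact ha
  | lf m _ n ih =>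
    simp only [pick] at hp
    split_ifs at hp with hb
    simp only [intAcc]
    apply ih hp
    simp only [testBit_land, testBit_bit, ha, Bool.true_and, decide_eq_true_eq]
    exact (cellOf_inj hb).symm
  | nd m k n _ ih =>
    simp only [pick] at hp
    split_ifs at hp with hb
    simp only [intAcc]
    apply ih hp
    simp only [testBit_land, testBit_lor, testBit_bit, ha, Bool.true_and, Bool.or_eq_true,
      decide_eq_true_eq]
    rcases hb with hb | hb
    · exact Or.inl (cellOf_inj hb).symm
    · exact Or.inr (uni_spec hb)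

theorem cover_of_int0 {k : F} (h : int0 k = 0) (b : Cell) : (pick k b).isSome := by
  by_contra hcon
  have hp : pick k b = none := by simpa using hcon
  cases k with
  | nil => simp [int0] at h
  | lf m _ n =>
    simp only [pick] at hp
    split_ifs at hp with hb
    subst hb
    have := intAcc_spec hp (acc := Nat.shiftLeft 1 m) (by simp)
    simp only [int0] at h
    rw [h] at this
    simp at this
  | nd m k' n =>
    simp only [pick] at hp
    split_ifs at hp with hb
    obtain ⟨i, rfl⟩ : ∃ i, b = cellOf i := by
      rcases hb with hb | hb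
      · exact ⟨m, hb⟩
      · exact zone_sub_range hb
    have := intAcc_spec hp (acc := Nat.lor (Nat.shiftLeft 1 m) (uni k')) (by
      simp only [testBit_lor, testBit_bit, Bool.or_eq_true, decide_eq_true_eq]
      rcases hb with hb | hb
      · exact Or.inl (cellOf_inj hb).symm
      · exact Or.inr (uni_spec hb))
    simp only [int0] at h
    rw [h] at this
    simp at this

theorem not_mem_of_land {M m : ℕ} {S : Set Cell} (hS : ∀ i, cellOf i ∈ S ↔ M.testBit i = true)
    (h : Nat.land M (Nat.shiftLeft 1 m) = 0) : cellOf m ∉ S := by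
  rw [hS]
  have := congrArg (fun z => z.testBit m) h
  simp only [testBit_land, testBit_bit, decide_true, Bool.and_true, Nat.zero_testBit] at this
  simp [this]

theorem insert_spec {M m : ℕ} {S : Set Cell} (hS : ∀ i, cellOf i ∈ S ↔ M.testBit i = true) (i : ℕ) :
    cellOf i ∈ insert (cellOf m) S ↔ (Nat.lor M (Nat.shiftLeft 1 m)).testBit i = true := by
  simp only [Set.mem_insert_iff, testBit_lor, testBit_bit, Bool.or_eq_true, decide_eq_true_eq, hS]
  constructor
  · rintro (h | h)
    · exact Or.inr (cellOf_inj h).symm
    · exact Or.inl h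
  · rintro (h | h)
    · exact Or.inr h
    · exact Or.inl (by rw [h])

theorem okF_sound {f : F} {M d : ℕ} {S : Set Cell} (hS : ∀ i, cellOf i ∈ S ↔ M.testBit i = true)
    (h : okF f M d = true) : Valid f S d := by
  induction f generalizing M d S with
  | nil => trivial
  | lf m hint n ih =>
    simp only [okF, Bool.and_eq_true, Nat.beq_eq, Nat.ble_eq] at h
    obtain ⟨⟨⟨h1, h2⟩, h3⟩, h4⟩ := h
    exact ⟨⟨not_mem_of_land hS h1, h2, win_sound (fun i hi => (insert_spec hS i).2 hi) h3⟩,
      ih hS h4⟩
  | nd m k n ihk ih =>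
    simp only [okF, Bool.and_eq_true, Nat.beq_eq, Nat.ble_eq] at h
    obtain ⟨⟨⟨⟨h1, h2⟩, h3⟩, h4⟩, h5⟩ := h
    exact ⟨⟨not_mem_of_land hS h1, h2, ihk (insert_spec hS) h4, cover_of_int0 h3⟩, ih hS h5⟩

theorem pick_isSome_of_not_range {f : F} (hf : f ≠ .nil) {b : Cell} (hb : ∀ i, b ≠ cellOf i) :
    (pick f b).isSome := by
  cases f with
  | nil => exact absurd rfl hf
  | lf m _ n => simp [pick, hb m]
  | nd m k n =>
    have : ¬ (b = cellOf m ∨ b ∈ zone k) := by
      rintro (h | h)
      · exact hb m h
      · obtain ⟨i, hi⟩ := zone_sub_range h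
        exact hb i hi
    simp [pick, this]

/-- **Soundness of the checker.** -/
theorem statement_of_okF (root : F) (hne : root ≠ .nil) (h : okF root 0 21 = true) :
    ∃ σ : List (ℤ × ℤ) → ℤ × ℤ, ∀ b : ℕ → ℤ × ℤ,
      (∀ k : ℕ, k < 20 →
        (∀ j : ℕ, j ≤ k → b k ≠ makerClaim σ b j) ∧
        (∀ j : ℕ, j < k → b k ≠ b j)) →
      (∀ k : ℕ, k ≤ 20 →
        (∀ j : ℕ, j < k → makerClaim σ b k ≠ makerClaim σ b j) ∧
        (∀ j : ℕ, j < k → makerClaim σ b k ≠ b j)) ∧
      ContainsCopy {c | ∃ j : ℕ, j ≤ 20 ∧ c = makerClaim σ b j} := by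
  apply statement_of_valid root (okF_sound (M := 0) (by simp) h)
  apply pick_isSome_of_not_range hne
  intro i hi
  have := congrArg Prod.fst hi
  simp only [cellOf] at this
  omega

theorem statement_of_check (root : F) (h : check root = true) :
    ∃ σ : List (ℤ × ℤ) → ℤ × ℤ, ∀ b : ℕ → ℤ × ℤ,
      (∀ k : ℕ, k < 20 →
        (∀ j : ℕ, j ≤ k → b k ≠ makerClaim σ b j) ∧
        (∀ j : ℕ, j < k → b k ≠ b j)) →
      (∀ k : ℕ, k ≤ 20 →
        (∀ j : ℕ, j < k → makerClaim σ b k ≠ makerClaim σ b j) ∧
        (∀ j : ℕ, j < k → makerClaim σ b k ≠ b j)) ∧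
      ContainsCopy {c | ∃ j : ℕ, j ≤ 20 ∧ c = makerClaim σ b j} := by
  cases root with
  | nil => simp [check] at h
  | lf m hh n => exact statement_of_okF _ (by simp) h
  | nd m k n => exact statement_of_okF _ (by simp) h

end Crest.Agent.S0047Aux.ZC
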